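import Vale.Agent.P075.Form

open scoped BigOperators RealInnerProductSpace

namespace Vale.Agent.Results.P075.FactoredInput

open Vale.Agent.P075

/-- Uniform `(3,3,3)` bound, summed with absolute values over the scales, for the dyadic triangular
form with one input of the form `F₀ x y = ⟪a x, b y⟫`, with `a, b` valued in any real inner product
space, on digit vectors of any length `m`. Here `10368 < 22 ^ 3`. -/
theorem result (m : ℕ) (V : Type) [NormedAddCommGroup V] [InnerProductSpace ℝ V]
    (a b : G m → V) (F₁ F₂ : G m → G m → ℝ) :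
    (∑ i : Fin m, |L (fun x y => ⟪a x, b y⟫) F₁ F₂ i|) ^ 3
      ≤ 10368 * (∑ x, ‖a x‖ ^ 3) * (∑ y, ‖b y‖ ^ 3)
          * (∑ y, ∑ z, |F₁ y z| ^ 3) * (∑ z, ∑ x, |F₂ z x| ^ 3) :=
  factored_bound a b F₁ F₂

end Vale.Agent.Results.P075.FactoredInput
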